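import Mathlib

set_option autoImplicit false
set_option linter.unusedSectionVars false
set_option linter.unusedSimpArgs false
set_option linter.unusedVariables false

namespace Crest.Agent.RY

open Polynomial Matrix

section mult

variable {F : Type*} [Field F] {n : Type*} [Fintype n] [DecidableEq n]

/-- If `M(y)` has nullity at least `e` then `(X - y)^e` divides `det M`. -/
theorem pow_dvd_det_of_rank (M : Matrix n n F[X]) (y : F) (e : ℕ)
    (h : (M.map (Polynomial.eval y)).rank + e ≤ Fintype.card n) :
    (X - C y) ^ e ∣ M.det := by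
  classical
  obtain ⟨L, L', D, hD⟩ :=
    Matrix.Pivot.exists_list_transvec_mul_mul_list_transvec_eq_diagonal (M.map (Polynomial.eval y))
  set P := (L.map TransvectionStruct.toMatrix).prod with hP
  set Q := (L'.map TransvectionStruct.toMatrix).prod with hQ
  have hPdet : P.det = 1 := TransvectionStruct.det_toMatrix_prod L
  have hQdet : Q.det = 1 := TransvectionStruct.det_toMatrix_prod L'
  have hrank : (diagonal D).rank = (M.map (Polynomial.eval y)).rank := by
    rw [← hD, Matrix.rank_mul_eq_left_of_isUnit_det _ _ (by rw [hQdet]; exact isUnit_one),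
      Matrix.rank_mul_eq_right_of_isUnit_det _ _ (by rw [hPdet]; exact isUnit_one)]
  rw [Matrix.rank_diagonal] at hrank
  -- number of zeros
  have hz : e ≤ (Finset.univ.filter (fun i => D i = 0)).card := by
    have h1 : (Finset.univ.filter (fun i => D i = 0)).card
        + (Finset.univ.filter (fun i => ¬ D i = 0)).card = Fintype.card n := by
      rw [Finset.card_filter_add_card_filter_not]; rfl
    have h2 : (Finset.univ.filter (fun i => ¬ D i = 0)).card = Fintype.card {i // D i ≠ 0} := by
      rw [Fintype.card_subtype]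
    omega
  set N : Matrix n n F[X] := P.map C * M * Q.map C with hN
  have hNdet : N.det = M.det := by
    rw [hN, Matrix.det_mul, Matrix.det_mul]
    have h1 : (P.map (C : F →+* F[X])).det = C P.det := by
      rw [← RingHom.mapMatrix_apply, ← RingHom.map_det]
    have h2 : (Q.map (C : F →+* F[X])).det = C Q.det := by
      rw [← RingHom.mapMatrix_apply, ← RingHom.map_det]
    rw [h1, h2, hPdet, hQdet]; simp
  have hNev : N.map (Polynomial.eval y) = diagonal D := by
    rw [← hD, hN]
    have : ∀ A : Matrix n n F[X], A.map (Polynomial.eval y) = (evalRingHom y).mapMatrix A := by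
      intro A; rfl
    rw [this, map_mul, map_mul]
    congr 1
    · congr 1
      ext i j
      simp
    · ext i j
      simp
  have hdvd : ∀ i j, D j = 0 → (X - C y) ∣ N i j := by
    intro i j hj
    rw [Polynomial.dvd_iff_isRoot, Polynomial.IsRoot]
    have := congrFun (congrFun hNev i) j
    rw [Matrix.map_apply] at this
    rw [this]
    by_cases hij : i = j
    · subst hij; simp [hj]
    · simp [Matrix.diagonal, hij]
  choose! R hR using hdvd
  set N' : Matrix n n F[X] := fun i j => if D j = 0 then R i j else N i j with hN'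
  set d : n → F[X] := fun j => if D j = 0 then X - C y else 1 with hd
  have hfac : N = N' * diagonal d := by
    ext1 i j
    rw [Matrix.mul_diagonal]
    by_cases hj : D j = 0
    · simp only [hN', hd, hj, if_true]
      rw [hR i j hj, mul_comm]
    · simp only [hN', hd, hj, if_false, mul_one]
  rw [← hNdet, hfac, Matrix.det_mul, Matrix.det_diagonal]
  refine Dvd.dvd.mul_left ?_ _
  have : ∏ i, d i = (X - C y) ^ (Finset.univ.filter (fun i => D i = 0)).card := by
    simp only [hd]
    rw [Finset.prod_ite]
    simp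
  rw [this]
  exact pow_dvd_pow _ hz

theorem natDegree_det_le_of_weights (M : Matrix n n F[X]) (α β : n → ℕ)
    (h : ∀ i j, M i j ≠ 0 → (M i j).natDegree + α i ≤ β j) :
    M.det.natDegree ≤ ∑ j, β j - ∑ i, α i := by
  rw [Matrix.det_apply]
  refine Polynomial.natDegree_sum_le_of_forall_le _ _ ?_
  intro σ _
  refine (Polynomial.natDegree_smul_le _ _).trans ?_
  by_cases hz : ∏ i, M (σ i) i = 0
  · rw [hz]; simp
  · have hne : ∀ i, M (σ i) i ≠ 0 := by
      intro i hi
      exact hz (Finset.prod_eq_zero (Finset.mem_univ i) hi)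
    have h1 : (∏ i, M (σ i) i).natDegree ≤ ∑ i, (M (σ i) i).natDegree :=
      Polynomial.natDegree_prod_le _ _
    have h2 : ∑ i, ((M (σ i) i).natDegree + α (σ i)) ≤ ∑ i, β i :=
      Finset.sum_le_sum fun i _ => h _ _ (hne i)
    rw [Finset.sum_add_distrib, Equiv.sum_comp σ α] at h2
    omega

end mult

section resultant

variable {F : Type*} [Field F] [Fintype F] [DecidableEq F]

/-- the set of lines of slope `y` (intercepts) meeting `A`. -/
def img (A : Finset (F × F)) (y : F) : Finset F := A.image (fun p => p.2 - y * p.1)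

/-- Two-variable Redei polynomial. -/
noncomputable def redei (A : Finset (F × F)) : F[X][X] :=
  ∏ p ∈ A, (X - C (C p.2 - X * C p.1))

theorem redei_coeff (A : Finset (F × F)) : ∀ m, (redei A).coeff m ≠ 0 →
    ((redei A).coeff m).natDegree + m ≤ A.card := by
  classical
  induction A using Finset.induction_on with
  | empty =>
    intro m hm
    simp only [redei, Finset.prod_empty, Polynomial.coeff_one] at hm ⊢
    by_cases h0 : m = 0
    · subst h0; simp
    · simp [h0] at hm
  | insert p A hp ih =>
    intro m hm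
    have hred : redei (insert p A) = (X - C (C p.2 - X * C p.1)) * redei A := by
      simp only [redei]; rw [Finset.prod_insert hp]
    rw [Finset.card_insert_of_notMem hp]
    rw [hred, sub_mul, Polynomial.coeff_sub, Polynomial.coeff_C_mul] at hm ⊢
    have hw : (C p.2 - X * C p.1 : F[X]).natDegree ≤ 1 := by
      refine (natDegree_sub_le _ _).trans ?_
      simp only [natDegree_C, max_le_iff, zero_le, true_and]
      refine natDegree_mul_le.trans ?_
      simp [natDegree_X_le]
    have h2 : (redei A).coeff m ≠ 0 →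
        ((C p.2 - X * C p.1) * (redei A).coeff m).natDegree + m ≤ A.card + 1 := by
      intro h
      have := ih m h
      have := natDegree_mul_le (p := (C p.2 - X * C p.1 : F[X])) (q := (redei A).coeff m)
      omega
    cases m with
    | zero =>
      simp only [mul_coeff_zero, coeff_X_zero, zero_mul, zero_sub, natDegree_neg] at hm ⊢
      apply h2
      intro h
      rw [h] at hm
      simp at hm
    | succ m =>
      rw [coeff_X_mul] at hm ⊢
      have h1 : (redei A).coeff m ≠ 0 → ((redei A).coeff m).natDegree + m ≤ A.card := ih m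
      by_cases ha : (redei A).coeff m = 0
      · by_cases hb : (redei A).coeff (m+1) = 0
        · rw [ha, hb] at hm; simp at hm
        · rw [ha, zero_sub, natDegree_neg]
          exact h2 hb
      · by_cases hb : (redei A).coeff (m+1) = 0
        · rw [hb, mul_zero, sub_zero]
          have := h1 ha
          omega
        · have := h1 ha
          have := h2 hb
          have := natDegree_sub_le ((redei A).coeff m)
            ((C p.2 - X * C p.1) * (redei A).coeff (m+1))
          omega

theorem redei_map (A : Finset (F × F)) (y : F) :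
    (redei A).map (evalRingHom y) = ∏ p ∈ A, (X - C (p.2 - y * p.1)) := by
  rw [redei, Polynomial.map_prod]
  refine Finset.prod_congr rfl fun p _ => ?_
  simp
  ring

theorem redei_map_natDegree (A : Finset (F × F)) (y : F) :
    ((redei A).map (evalRingHom y)).natDegree = A.card := by
  rw [redei_map, natDegree_prod_of_monic _ _ (fun i _ => monic_X_sub_C _)]
  simp only [natDegree_X_sub_C]
  simp

theorem redei_map_eval (A : Finset (F × F)) (y c : F) :
    ((redei A).map (evalRingHom y)).eval c = 0 ↔ c ∈ img A y := by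
  rw [redei_map, eval_prod, Finset.prod_eq_zero_iff]
  simp only [img, Finset.mem_image, eval_sub, eval_X, eval_C, sub_eq_zero]
  constructor
  · rintro ⟨p, hp, h⟩; exact ⟨p, hp, h.symm⟩
  · rintro ⟨p, hp, h⟩; exact ⟨p, hp, h.symm⟩

theorem dvd_of_roots (s : Finset F) (p : F[X]) (h : ∀ c ∈ s, p.eval c = 0) :
    (∏ c ∈ s, (X - C c)) ∣ p := by
  refine Finset.prod_dvd_of_coprime ?_ ?_
  · intro a _ b _ hab
    exact pairwise_coprime_X_sub_C Function.injective_id hab
  · intro c hc
    rw [dvd_iff_isRoot]
    exact h c hc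

/-- column polynomials of the Sylvester type matrix -/
noncomputable def colPoly (A : Finset (F × F)) (a b : ℕ) (j : Fin (a + b)) : F[X][X] :=
  if (j : ℕ) < a then X ^ (j : ℕ) * redei A
  else X ^ ((j : ℕ) - a) * (X ^ (Fintype.card F) - X)

noncomputable def sylM (A : Finset (F × F)) (k a b : ℕ) :
    Matrix (Fin (a + b)) (Fin (a + b)) F[X] :=
  fun i j => (colPoly A a b j).coeff (k + (i : ℕ))

theorem colPoly_map_lt (A : Finset (F × F)) (a b : ℕ) (j : Fin (a + b)) (y : F) (hj : (j : ℕ) < a) :
    (colPoly A a b j).map (evalRingHom y) = X ^ (j : ℕ) * (redei A).map (evalRingHom y) := by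
  simp [colPoly, hj, Polynomial.map_mul, Polynomial.map_pow]

theorem colPoly_map_ge (A : Finset (F × F)) (a b : ℕ) (j : Fin (a + b)) (y : F) (hj : ¬ (j : ℕ) < a) :
    (colPoly A a b j).map (evalRingHom y) =
      X ^ ((j : ℕ) - a) * (X ^ (Fintype.card F) - X) := by
  simp [colPoly, hj, Polynomial.map_mul, Polynomial.map_pow]

theorem colPoly_map_eval (A : Finset (F × F)) (a b : ℕ) (j : Fin (a + b)) (y c : F)
    (hc : c ∈ img A y) : ((colPoly A a b j).map (evalRingHom y)).eval c = 0 := by
  by_cases hj : (j : ℕ) < a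
  · rw [colPoly_map_lt _ _ _ _ _ hj, eval_mul, (redei_map_eval A y c).2 hc, mul_zero]
  · rw [colPoly_map_ge _ _ _ _ _ hj, eval_mul]
    simp [FiniteField.pow_card]

theorem one_lt_q : 1 < Fintype.card F := Fintype.one_lt_card

theorem natDegree_xq : (X ^ (Fintype.card F) - X : F[X]).natDegree = Fintype.card F :=
  FiniteField.X_pow_card_sub_X_natDegree_eq F one_lt_q

theorem colPoly_map_natDegree (A : Finset (F × F)) (k a b : ℕ) (hq : Fintype.card F = a + k)
    (hN : A.card = b + k) (j : Fin (a + b)) (y : F) :
    ((colPoly A a b j).map (evalRingHom y)).natDegree < a + b + k := by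
  have hj2 := j.2
  by_cases hj : (j : ℕ) < a
  · rw [colPoly_map_lt _ _ _ _ _ hj]
    refine lt_of_le_of_lt natDegree_mul_le ?_
    rw [redei_map_natDegree, natDegree_X_pow]
    omega
  · rw [colPoly_map_ge _ _ _ _ _ hj]
    refine lt_of_le_of_lt natDegree_mul_le ?_
    rw [natDegree_xq, natDegree_X_pow]
    omega

theorem prod_roots_natDegree (s : Finset F) : (∏ c ∈ s, (X - C c : F[X])).natDegree = s.card := by
  rw [natDegree_prod_of_monic _ _ (fun i _ => monic_X_sub_C _)]
  simp

theorem prod_roots_monic (s : Finset F) : (∏ c ∈ s, (X - C c : F[X])).Monic :=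
  monic_prod_of_monic _ _ (fun i _ => monic_X_sub_C _)

/-- rank bound -/
theorem sylM_rank (A : Finset (F × F)) (k a b : ℕ) (hq : Fintype.card F = a + k)
    (hN : A.card = b + k) (y : F) :
    ((sylM A k a b).map (Polynomial.eval y)).rank + ((img A y).card - k) ≤
      Fintype.card (Fin (a + b)) := by
  rw [Fintype.card_fin]
  by_cases hk : (img A y).card ≤ k
  · have h1 := Matrix.rank_le_card_width ((sylM A k a b).map (Polynomial.eval y))
    rw [Fintype.card_fin] at h1
    omega
  push Not at hk
  set n := (img A y).card with hn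
  have hnN : n ≤ b + k := by
    rw [← hN]; exact Finset.card_image_le
  have hnq : n ≤ a + k := by
    rw [← hq]; exact Finset.card_le_univ _
  set D : F[X] := ∏ c ∈ img A y, (X - C c) with hD
  have hdvd : ∀ j, D ∣ (colPoly A a b j).map (evalRingHom y) := fun j =>
    dvd_of_roots _ _ fun c hc => colPoly_map_eval A a b j y c hc
  choose H hH using hdvd
  have hdeg : ∀ j, (H j).natDegree < a + b + k - n := by
    intro j
    by_cases h0 : H j = 0
    · rw [h0]; simp; omega
    · have h1 := colPoly_map_natDegree A k a b hq hN j y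
      rw [hH j, natDegree_mul (prod_roots_monic _).ne_zero h0, prod_roots_natDegree] at h1
      omega
  set m := a + b + k - n with hm
  have hfac : (sylM A k a b).map (Polynomial.eval y) =
      (Matrix.of fun (i : Fin (a + b)) (l : Fin m) => (D * X ^ (l : ℕ)).coeff (k + (i : ℕ))) *
      (Matrix.of fun (l : Fin m) (j : Fin (a + b)) => (H j).coeff (l : ℕ)) := by
    ext1 i j
    rw [Matrix.mul_apply, Matrix.map_apply]
    simp only [Matrix.of_apply, sylM]
    have h1 : Polynomial.eval y ((colPoly A a b j).coeff (k + (i : ℕ))) =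
        ((colPoly A a b j).map (evalRingHom y)).coeff (k + (i:ℕ)) := by
      rw [coeff_map]; rfl
    rw [h1, hH j]
    conv_lhs => rw [(H j).as_sum_range' m (hdeg j)]
    rw [Finset.mul_sum, Polynomial.finsetSum_coeff, ← Fin.sum_univ_eq_sum_range
      (fun l => (D * (monomial l) ((H j).coeff l)).coeff (k + (i:ℕ)))]
    refine Finset.sum_congr rfl fun l _ => ?_
    rw [← C_mul_X_pow_eq_monomial, mul_comm (C _) _, ← mul_assoc, coeff_mul_C]
  rw [hfac]
  have h1 := Matrix.rank_mul_le_left
    (Matrix.of fun (i : Fin (a + b)) (l : Fin m) => (D * X ^ (l : ℕ)).coeff (k + (i : ℕ)))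
    (Matrix.of fun (l : Fin m) (j : Fin (a + b)) => (H j).coeff (l : ℕ))
  have h2 := Matrix.rank_le_card_width
    (Matrix.of fun (i : Fin (a + b)) (l : Fin m) => (D * X ^ (l : ℕ)).coeff (k + (i : ℕ)))
  rw [Fintype.card_fin] at h2
  omega

theorem comb_zero (A : Finset (F × F)) (a b : ℕ) (y : F)
    (hq : Fintype.card F = a + (img A y).card) (hN : A.card = b + (img A y).card)
    (v : Fin (a + b) → F)
    (hv0 : ((sylM A (img A y).card a b).map (Polynomial.eval y)).mulVec v = 0) :
    ∑ j, C (v j) * (colPoly A a b j).map (evalRingHom y) = 0 := by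
  classical
  obtain ⟨k, hk⟩ : ∃ k, k = (img A y).card := ⟨_, rfl⟩
  rw [← hk] at hq hN hv0
  obtain ⟨r, hr⟩ : ∃ r : F[X], r = ∑ j, C (v j) * (colPoly A a b j).map (evalRingHom y) := ⟨_, rfl⟩
  rw [← hr]
  have hrcoeff : ∀ m, k ≤ m → r.coeff m = 0 := by
    intro m hm
    by_cases hm2 : m < a + b + k
    · have := congrFun hv0 ⟨m - k, by omega⟩
      rw [Matrix.mulVec, dotProduct] at this
      rw [hr, finsetSum_coeff]
      simp only [Pi.zero_apply, Matrix.map_apply, sylM] at this
      rw [← this]
      refine Finset.sum_congr rfl fun j _ => ?_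
      rw [coeff_C_mul, mul_comm, coeff_map]
      have hkm : k + (m - k) = m := by omega
      simp only [hkm]
      rfl
    · rw [hr, finsetSum_coeff]
      refine Finset.sum_eq_zero fun j _ => ?_
      rw [coeff_C_mul, coeff_eq_zero_of_natDegree_lt, mul_zero]
      have := colPoly_map_natDegree A k a b hq hN j y
      omega
  have hdvd : (∏ c ∈ img A y, (X - C c)) ∣ r := by
    refine dvd_of_roots _ _ fun c hc => ?_
    rw [hr, eval_finsetSum]
    refine Finset.sum_eq_zero fun j _ => ?_
    rw [eval_mul, colPoly_map_eval A a b j y c hc, mul_zero]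
  by_contra hne
  have h1 := natDegree_le_of_dvd hdvd hne
  rw [prod_roots_natDegree] at h1
  have h2 : r.natDegree < k := by
    by_contra hcon
    push Not at hcon
    exact hne (leadingCoeff_eq_zero.1 (hrcoeff _ hcon))
  omega

theorem fg_zero (A : Finset (F × F)) (a : ℕ) (y : F)
    (hq : Fintype.card F = a + (img A y).card) (f g : F[X]) (hfa : f ≠ 0 → f.natDegree < a)
    (hfg : f * (redei A).map (evalRingHom y) + g * (X ^ (Fintype.card F) - X) = 0) :
    f = 0 ∧ g = 0 := by
  classical
  have hf0 : f = 0 := by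
    by_contra hne
    have hdvd : (∏ c ∈ (img A y)ᶜ, (X - C c)) ∣ f := by
      refine dvd_of_roots _ _ fun c hc => ?_
      have := congrArg (fun p : F[X] => p.eval c) hfg
      simp only [eval_add, eval_mul, eval_sub, eval_pow, eval_X, FiniteField.pow_card, sub_self,
        mul_zero, add_zero, eval_zero, mul_eq_zero] at this
      rcases this with h | h
      · exact h
      · exact absurd ((redei_map_eval A y c).1 h) (Finset.mem_compl.1 hc)
    have h1 := natDegree_le_of_dvd hdvd hne
    rw [prod_roots_natDegree, Finset.card_compl, hq] at h1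
    have h2 := hfa hne
    omega
  refine ⟨hf0, ?_⟩
  rw [hf0, zero_mul, zero_add] at hfg
  rcases mul_eq_zero.1 hfg with h | h
  · exact h
  · exfalso
    have h3 := natDegree_xq (F := F)
    rw [h] at h3
    have h2 := one_lt_q (F := F)
    simp only [natDegree_zero] at h3
    omega

theorem coeff_of_sum (m : ℕ) (w : Fin m → F)
    (h : (∑ j : Fin m, C (w j) * X ^ (j : ℕ) : F[X]) = 0) (j : Fin m) : w j = 0 := by
  have := congrArg (fun p : F[X] => p.coeff (j : ℕ)) h
  simp only [finsetSum_coeff, coeff_C_mul, coeff_X_pow, coeff_zero] at this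
  rw [Finset.sum_eq_single j] at this
  · simpa using this
  · intro i _ hij
    have : (j : ℕ) ≠ (i : ℕ) := fun h => hij (Fin.ext h.symm)
    simp [this]
  · simp

theorem natDegree_of_sum (m : ℕ) (w : Fin m → F)
    (h : (∑ j : Fin m, C (w j) * X ^ (j : ℕ) : F[X]) ≠ 0) :
    (∑ j : Fin m, C (w j) * X ^ (j : ℕ) : F[X]).natDegree < m := by
  have ha : 0 < m := by
    rcases Nat.eq_zero_or_pos m with h0 | h0
    · exfalso; apply h
      subst h0
      simp
    · exact h0
  refine lt_of_le_of_lt (natDegree_sum_le_of_forall_le (n := m - 1) _ _ ?_) (by omega)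
  intro j _
  refine (natDegree_C_mul_X_pow_le _ _).trans ?_
  have := j.2
  omega

theorem comb_split (A : Finset (F × F)) (a b : ℕ) (y : F) (v : Fin (a + b) → F) :
    ∑ j, C (v j) * (colPoly A a b j).map (evalRingHom y) =
      (∑ j : Fin a, C (v (Fin.castAdd b j)) * X ^ (j : ℕ)) * (redei A).map (evalRingHom y) +
      (∑ j : Fin b, C (v (Fin.natAdd a j)) * X ^ (j : ℕ)) * (X ^ (Fintype.card F) - X) := by
  rw [Fin.sum_univ_add, Finset.sum_mul, Finset.sum_mul]
  congr 1
  · refine Finset.sum_congr rfl fun j _ => ?_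
    rw [colPoly_map_lt _ _ _ _ _ (by simp), mul_assoc]
    simp
  · refine Finset.sum_congr rfl fun j _ => ?_
    rw [colPoly_map_ge _ _ _ _ _ (by simp), mul_assoc]
    simp

theorem sylM_det_ne (A : Finset (F × F)) (a b : ℕ) (y : F)
    (hq : Fintype.card F = a + (img A y).card) (hN : A.card = b + (img A y).card) :
    (sylM A (img A y).card a b).det ≠ 0 := by
  classical
  intro hdet
  have h0 : ((sylM A (img A y).card a b).map (Polynomial.eval y)).det = 0 := by
    have : (sylM A (img A y).card a b).map (Polynomial.eval y) =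
      (evalRingHom y).mapMatrix (sylM A (img A y).card a b) := rfl
    rw [this, ← RingHom.map_det, hdet, map_zero]
  obtain ⟨v, hv, hv0⟩ := Matrix.exists_mulVec_eq_zero_iff.2 h0
  apply hv
  have h1 := comb_zero A a b y hq hN v hv0
  rw [comb_split] at h1
  obtain ⟨hf, hg⟩ := fg_zero A a y hq _ _ (natDegree_of_sum _ _) h1
  have h2 := coeff_of_sum a _ hf
  have h3 := coeff_of_sum b _ hg
  funext j
  refine Fin.addCases (fun i => ?_) (fun i => ?_) j
  · simpa using h2 i
  · simpa using h3 i

theorem sylM_weights (A : Finset (F × F)) (k a b : ℕ) (hq : Fintype.card F = a + k)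
    (hN : A.card = b + k) (i j : Fin (a + b)) (h : sylM A k a b i j ≠ 0) :
    (sylM A k a b i j).natDegree + (k + (i : ℕ)) ≤
      if (j : ℕ) < a then A.card + (j : ℕ) else Fintype.card F + ((j : ℕ) - a) := by
  unfold sylM colPoly at *
  by_cases hj : (j : ℕ) < a
  · simp only [hj, if_true] at h ⊢
    rw [coeff_X_pow_mul'] at h ⊢
    by_cases hle : (j : ℕ) ≤ k + (i : ℕ)
    · simp only [hle, if_true] at h ⊢
      have := redei_coeff A _ h
      omega
    · simp [hle] at h
  · simp only [hj, if_false] at h ⊢
    rw [coeff_X_pow_mul'] at h ⊢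
    by_cases hle : (j : ℕ) - a ≤ k + (i : ℕ)
    · simp only [hle, if_true] at h ⊢
      have hq1 := one_lt_q (F := F)
      rw [coeff_sub, coeff_X_pow, coeff_X] at h ⊢
      have hdeg : ∀ (P Q : Prop) [Decidable P] [Decidable Q],
          ((if P then (1 : F[X]) else 0) - (if Q then 1 else 0)).natDegree = 0 := by
        intro P Q _ _
        split_ifs <;> simp
      rw [hdeg]
      by_cases h1 : k + (i : ℕ) - ((j : ℕ) - a) = Fintype.card F
      · omega
      · by_cases h2 : 1 = k + (i : ℕ) - ((j : ℕ) - a)
        · omega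
        · simp [h1, h2] at h
    · simp [hle] at h

theorem weights_sum (k a b : ℕ) :
    (∑ j : Fin (a + b), (if (j : ℕ) < a then (b + k) + (j : ℕ) else (a + k) + ((j : ℕ) - a)))
      - ∑ i : Fin (a + b), (k + (i : ℕ)) ≤ b * a := by
  have h1 : (∑ j : Fin (a + b), (if (j : ℕ) < a then (b + k) + (j : ℕ) else (a + k) + ((j : ℕ) - a)))
      = ∑ j ∈ Finset.range a, ((b + k) + j) + ∑ j ∈ Finset.range b, ((a + k) + j) := by
    rw [Fin.sum_univ_add, ← Fin.sum_univ_eq_sum_range, ← Fin.sum_univ_eq_sum_range]
    congr 1
    · refine Finset.sum_congr rfl fun j _ => ?_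
      simp
    · refine Finset.sum_congr rfl fun j _ => ?_
      simp
  have h2 : ∑ i : Fin (a + b), (k + (i : ℕ)) =
      ∑ j ∈ Finset.range a, (k + j) + ∑ j ∈ Finset.range b, (k + (a + j)) := by
    rw [Fin.sum_univ_add, ← Fin.sum_univ_eq_sum_range, ← Fin.sum_univ_eq_sum_range]
    congr 1
  rw [h1, h2]
  have h3 : ∑ j ∈ Finset.range a, ((b + k) + j) = ∑ j ∈ Finset.range a, (k + j) + a * b := by
    have : ∑ j ∈ Finset.range a, ((b + k) + j) = ∑ j ∈ Finset.range a, ((k + j) + b) :=
      Finset.sum_congr rfl fun j _ => by ring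
    rw [this, Finset.sum_add_distrib]
    simp
  have h4 : ∑ j ∈ Finset.range b, ((a + k) + j) = ∑ j ∈ Finset.range b, (k + (a + j)) :=
    Finset.sum_congr rfl fun j _ => by ring
  rw [h3, h4, mul_comm b a]
  omega

/-- **Szonyi–Weiner resultant lemma** for the Redei polynomial. -/
theorem resultant_lemma (A : Finset (F × F)) (y0 : F) :
    ∑ y, ((img A y).card - (img A y0).card) ≤
      (A.card - (img A y0).card) * (Fintype.card F - (img A y0).card) := by
  classical
  set k := (img A y0).card with hk
  have hkN : k ≤ A.card := Finset.card_image_le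
  have hkq : k ≤ Fintype.card F := Finset.card_le_univ _
  obtain ⟨a, ha⟩ : ∃ a, Fintype.card F = a + k := ⟨Fintype.card F - k, by omega⟩
  obtain ⟨b, hb⟩ : ∃ b, A.card = b + k := ⟨A.card - k, by omega⟩
  have hdet : (sylM A k a b).det ≠ 0 := sylM_det_ne A a b y0 ha hb
  have hdvd : (∏ y : F, (X - C y) ^ ((img A y).card - k)) ∣ (sylM A k a b).det := by
    refine Finset.prod_dvd_of_coprime ?_ ?_
    · intro x _ y _ hxy
      exact IsCoprime.pow (pairwise_coprime_X_sub_C Function.injective_id hxy)
    · intro y _
      exact pow_dvd_det_of_rank _ y _ (sylM_rank A k a b ha hb y)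
  have h1 := natDegree_le_of_dvd hdvd hdet
  rw [natDegree_prod_of_monic _ _ (fun y _ => (monic_X_sub_C y).pow _)] at h1
  have h2 := natDegree_det_le_of_weights (sylM A k a b) (fun i => k + (i : ℕ))
    (fun j => if (j : ℕ) < a then A.card + (j : ℕ) else Fintype.card F + ((j : ℕ) - a))
    (sylM_weights A k a b ha hb)
  have h3 := weights_sum k a b
  rw [← hb, ← ha] at h3
  have h4 : A.card - k = b := by omega
  have h5 : Fintype.card F - k = a := by omega
  rw [h4, h5]
  refine le_trans ?_ (h2.trans h3)
  refine le_trans (le_of_eq ?_) h1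
  refine Finset.sum_congr rfl fun y _ => ?_
  rw [natDegree_pow, natDegree_X_sub_C, mul_one]

end resultant

end Crest.Agent.RY
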